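import Vale.Agent.P074.Brenier

/-!
# The exponent `1/4` is admissible for the quadratic optimal transport maps from a uniform
# measure on a compact convex set.
-/

namespace Vale.Agent.Results.P074.AdmissibleQuarter

open Vale.Agent.P074

/-- For every dimension `d`, the exponent `α = 1/4` is admissible: for every compact convex `K`
with nonempty interior and every nonempty compact `Y` there is a finite `C(K, Y)` such that
`‖T_μ - T_ν‖_{L²(ρ)} ≤ C W_2(μ, ν)^{1/4}` for all probability measures `μ, ν` supported in `Y` and
all quadratic optimal transport maps `T_μ, T_ν` from the uniform measure `ρ` on `K`. -/
theorem result (d : ℕ) : Admissible d (1 / 4) := admissible_quarter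

end Vale.Agent.Results.P074.AdmissibleQuarter
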