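import Vale.Agent.P074.Brenier

/-!
# The bracket `1/4 ≤ α*_d ≤ 1/3` for the stability exponent.
-/

namespace Vale.Agent.Results.P074.Bracket

open Vale.Agent.P074

/-- For every `d ≥ 2`, the exponent `1/4` is admissible and no exponent above `1/3` is admissible;
hence `1/4 ≤ α*_d ≤ 1/3`. In particular the conjecture that `1/2` is admissible is false. -/
theorem result (d : ℕ) (hd : 2 ≤ d) :
    Admissible d (1 / 4) ∧ ∀ α : ℝ, 1 / 3 < α → ¬ Admissible d α :=
  ⟨admissible_quarter, fun _ hα => not_admissible hd hα⟩

end Vale.Agent.Results.P074.Bracket
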