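import Vale.Agent.P074.Final

/-!
# The stability exponent of quadratic optimal transport maps is exactly `1/3`.
-/

namespace Vale.Agent.Results.P074.Exact

/-- For every `d ≥ 2`, the exponent `1/3` is the greatest admissible exponent in `(0, 1]`: it is
admissible, and every admissible exponent is at most `1/3`. Hence `α*_d = 1/3`, the supremum is
attained, and `1/2` is not admissible. -/
theorem result (d : ℕ) (hd : 2 ≤ d) :
    IsGreatest {α : ℝ | 0 < α ∧ α ≤ 1 ∧ Vale.Agent.P074.Admissible d α} (1 / 3) :=
  Vale.Agent.P074.isGreatest_admissible hd

end Vale.Agent.Results.P074.Exact
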