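import Vale.Agent.P074.Counter

/-- In every dimension `d ≥ 2`, no exponent `α > 1/3` is admissible for the stability of quadratic
optimal transport maps from a uniform convex source. In particular `α = 1/2` is not admissible. -/
theorem Vale.Agent.Results.P074.NotAdmissible.result {d : ℕ} (hd : 2 ≤ d) {α : ℝ}
    (hα : 1 / 3 < α) : ¬ Vale.Agent.P074.Admissible d α :=
  Vale.Agent.P074.not_admissible hd hα
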